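import Mathlib

/-!
# The one-dimensional analytic lemma behind the refined volume bound
-/

namespace Vale.Agent.P243

open MeasureTheory Set

private lemma integral_quad (A k τ x y : ℝ) (hτ : τ ≠ 0) :
    ∫ t in x..y, A * (1 - k * t / τ) ^ 2 =
      A * (y - k * y ^ 2 / τ + k ^ 2 * y ^ 3 / (3 * τ ^ 2)) -
        A * (x - k * x ^ 2 / τ + k ^ 2 * x ^ 3 / (3 * τ ^ 2)) := by
  have hd : ∀ t ∈ uIcc x y, HasDerivAt
      (fun t : ℝ => A * (t - k * t ^ 2 / τ + k ^ 2 * t ^ 3 / (3 * τ ^ 2)))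
      (A * (1 - k * t / τ) ^ 2) t := by
    intro t _
    have h1 : HasDerivAt (fun t : ℝ => t) 1 t := hasDerivAt_id t
    have h2 : HasDerivAt (fun t : ℝ => k * t ^ 2 / τ) (k * (2 * t) / τ) t := by
      have := ((hasDerivAt_pow 2 t).const_mul k).div_const τ
      simpa using this
    have h3 : HasDerivAt (fun t : ℝ => k ^ 2 * t ^ 3 / (3 * τ ^ 2))
        (k ^ 2 * (3 * t ^ 2) / (3 * τ ^ 2)) t := by
      have := ((hasDerivAt_pow 3 t).const_mul (k ^ 2)).div_const (3 * τ ^ 2)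
      simpa using this
    have h4 := ((h1.sub h2).add h3).const_mul A
    refine h4.congr_deriv ?_
    field_simp
    ring
  have hc : Continuous fun t : ℝ => A * (1 - k * t / τ) ^ 2 := by fun_prop
  exact intervalIntegral.integral_eq_sub_of_hasDerivAt hd (hc.intervalIntegrable _ _)

/-- Let `a` be the area profile of the level sets of a concave function on a planar convex body
(so `√a` is concave on `[0, M]` in the weak three point form `hbrunn`).  Then for every
`c ∈ [0, 1]` and `b ≥ 0`: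
`∫₀ᴹ min b (a t) dt ≤ (3 (1 - c) b / a 0 + c ^ 3) ∫₀ᴹ a t dt`. -/
theorem cap_bound (a : ℝ → ℝ) (M : ℝ) (hM : 0 ≤ M)
    (hanti : ∀ s t, 0 ≤ s → s ≤ t → a t ≤ a s)
    (hnn : ∀ t, 0 ≤ a t)
    (hbrunn : ∀ s t, 0 ≤ s → s ≤ t → 0 < t → t ≤ M →
      (1 - s / t) * √(a 0) + (s / t) * √(a t) ≤ √(a s))
    (hA : 0 < a 0) (c : ℝ) (hc0 : 0 ≤ c) (hc1 : c ≤ 1) (b : ℝ) (hb : 0 ≤ b) :
    ∫ t in (0 : ℝ)..M, min b (a t) ≤ (3 * (1 - c) * (b / a 0) + c ^ 3) * ∫ t in (0 : ℝ)..M, a t := by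
  set A := a 0 with hAdef
  have hsub : ∀ x y : ℝ, 0 ≤ x → 0 ≤ y → uIcc x y ⊆ Ici 0 := by
    intro x y hx hy z hz
    exact le_trans (le_min hx hy) hz.1
  have hanti' : AntitoneOn a (Ici 0) := fun s hs t _ hst => hanti s t hs hst
  have hantim : AntitoneOn (fun t => min b (a t)) (Ici 0) :=
    fun s hs t _ hst => min_le_min_left b (hanti s t hs hst)
  have hint : ∀ x y, 0 ≤ x → 0 ≤ y → IntervalIntegrable a volume x y := fun x y hx hy =>
    (hanti'.mono (hsub x y hx hy)).intervalIntegrable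
  have hintm : ∀ x y, 0 ≤ x → 0 ≤ y → IntervalIntegrable (fun t => min b (a t)) volume x y :=
    fun x y hx hy => (hantim.mono (hsub x y hx hy)).intervalIntegrable
  set V := ∫ t in (0 : ℝ)..M, a t with hV
  have hV0 : 0 ≤ V := intervalIntegral.integral_nonneg hM (fun t _ => hnn t)
  set τ := (1 - c) * (3 * V) / A with hτ
  have hτ0 : 0 ≤ τ := by
    have : 0 ≤ 1 - c := by linarith
    positivity
  have hAτ : A * τ = (1 - c) * (3 * V) := by
    rw [hτ]
    field_simp
  have hgoal : (3 * (1 - c) * (b / A) + c ^ 3) * V = b * τ + c ^ 3 * V := by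
    rw [hτ]
    field_simp
  rw [hgoal]
  have hc3 : 0 ≤ c ^ 3 * V := by positivity
  have hminb : ∀ x y, 0 ≤ x → x ≤ y → ∫ t in x..y, min b (a t) ≤ b * (y - x) := by
    intro x y hx hxy
    have h1 : ∫ t in x..y, min b (a t) ≤ ∫ _t in x..y, b :=
      intervalIntegral.integral_mono_on hxy (hintm x y hx (hx.trans hxy)) (by simp)
        (fun t _ => min_le_left _ _)
    rw [intervalIntegral.integral_const, smul_eq_mul] at h1
    linarith
  have hmina : ∀ x y, 0 ≤ x → x ≤ y → ∫ t in x..y, min b (a t) ≤ ∫ t in x..y, a t := by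
    intro x y hx hxy
    exact intervalIntegral.integral_mono_on hxy (hintm x y hx (hx.trans hxy))
      (hint x y hx (hx.trans hxy)) (fun t _ => min_le_right _ _)
  rcases le_or_gt M τ with hMτ | hτM
  · have h1 := hminb 0 M le_rfl hM
    have h2 : b * (M - 0) ≤ b * τ := by
      rw [sub_zero]
      exact mul_le_mul_of_nonneg_left hMτ hb
    linarith
  rcases hτ0.eq_or_lt with hτz | hτpos
  · -- `τ = 0`
    have h1 := hmina 0 M le_rfl hM
    have h2 : (1 - c) * (3 * V) = 0 := by rw [← hAτ, ← hτz, mul_zero]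
    rw [← hτz, mul_zero, zero_add]
    rcases mul_eq_zero.mp h2 with h3 | h3
    · have : c = 1 := by linarith
      rw [this]
      simpa using h1
    · have hV' : V = 0 := by linarith
      rw [hV', mul_zero]
      rw [← hV, hV'] at h1
      exact h1
  -- main case `0 < τ < M`
  have hsplit : ∫ t in (0 : ℝ)..M, min b (a t) =
      (∫ t in (0 : ℝ)..τ, min b (a t)) + ∫ t in τ..M, min b (a t) :=
    (intervalIntegral.integral_add_adjacent_intervals (hintm 0 τ le_rfl hτ0)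
      (hintm τ M hτ0 hM)).symm
  have hVsplit : V = (∫ t in (0 : ℝ)..τ, a t) + ∫ t in τ..M, a t :=
    (intervalIntegral.integral_add_adjacent_intervals (hint 0 τ le_rfl hτ0)
      (hint τ M hτ0 hM)).symm
  have h1 := hminb 0 τ le_rfl hτ0
  rw [sub_zero] at h1
  have h2 := hmina τ M hτ0 hτM.le
  suffices htail : ∫ t in τ..M, a t ≤ c ^ 3 * V by
    rw [hsplit]
    linarith
  have hsA : 0 < √A := Real.sqrt_pos.mpr hA
  have hsA2 : √A ^ 2 = A := Real.sq_sqrt hA.le
  set sg := √(a τ) / √A with hsg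
  have hsg0 : 0 ≤ sg := by positivity
  have hsgA : √(a τ) = sg * √A := by
    rw [hsg]
    field_simp
  have hsg1 : sg ≤ 1 := by
    rw [hsg, div_le_one hsA]
    exact Real.sqrt_le_sqrt (hanti 0 τ le_rfl hτ0)
  -- head
  have hhead : ∀ t ∈ Icc (0 : ℝ) τ, A * (1 - (1 - sg) * t / τ) ^ 2 ≤ a t := by
    intro t ht
    have hb1 := hbrunn t τ ht.1 ht.2 hτpos hτM.le
    rw [hsgA] at hb1
    have e1 : (1 - t / τ) * √A + t / τ * (sg * √A) = √A * (1 - (1 - sg) * t / τ) := by
      field_simp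
      ring
    rw [e1] at hb1
    have hq : 0 ≤ 1 - (1 - sg) * t / τ := by
      have h3 : (1 - sg) * t / τ ≤ 1 := by
        rw [div_le_one hτpos]
        have : (1 - sg) * t ≤ 1 * τ :=
          mul_le_mul (by linarith) ht.2 ht.1 (by norm_num)
        linarith
      linarith
    have h4 : (√A * (1 - (1 - sg) * t / τ)) ^ 2 ≤ √(a t) ^ 2 :=
      pow_le_pow_left₀ (by positivity) hb1 2
    rw [Real.sq_sqrt (hnn t), mul_pow, hsA2] at h4
    exact h4
  have hHEAD : A * τ * (1 + sg + sg ^ 2) / 3 ≤ ∫ t in (0 : ℝ)..τ, a t := by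
    have h3 : ∫ t in (0 : ℝ)..τ, A * (1 - (1 - sg) * t / τ) ^ 2 ≤ ∫ t in (0 : ℝ)..τ, a t :=
      intervalIntegral.integral_mono_on hτ0
        ((by fun_prop : Continuous fun t : ℝ => A * (1 - (1 - sg) * t / τ) ^ 2).intervalIntegrable
          _ _) (hint 0 τ le_rfl hτ0) hhead
    rw [integral_quad A (1 - sg) τ 0 τ hτpos.ne'] at h3
    have e2 : A * (τ - (1 - sg) * τ ^ 2 / τ + (1 - sg) ^ 2 * τ ^ 3 / (3 * τ ^ 2)) -
        A * (0 - (1 - sg) * 0 ^ 2 / τ + (1 - sg) ^ 2 * 0 ^ 3 / (3 * τ ^ 2)) =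
        A * τ * (1 + sg + sg ^ 2) / 3 := by
      field_simp
      ring
    rw [e2] at h3
    exact h3
  rcases le_or_gt c sg with hcs | hsc
  · -- `sg ≥ c`
    have h3 : A * τ * (1 + c + c ^ 2) / 3 ≤ A * τ * (1 + sg + sg ^ 2) / 3 := by
      have : 0 ≤ A * τ := by positivity
      have h5 : 1 + c + c ^ 2 ≤ 1 + sg + sg ^ 2 := by nlinarith
      have := mul_le_mul_of_nonneg_left h5 this
      linarith
    have h4 : A * τ * (1 + c + c ^ 2) / 3 = (1 - c ^ 3) * V := by
      rw [hAτ]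
      ring
    linarith
  · -- `sg < c`
    have hk : 0 < 1 - sg := by linarith
    have htl : ∀ t ∈ Icc τ M, 0 ≤ 1 - (1 - sg) * t / τ ∧ a t ≤ A * (1 - (1 - sg) * t / τ) ^ 2 := by
      intro t ht
      have htpos : 0 < t := lt_of_lt_of_le hτpos ht.1
      have hb1 := hbrunn τ t hτ0 ht.1 htpos ht.2
      rw [hsgA] at hb1
      have h5 : τ / t * √(a t) ≤ √A * (sg - 1 + τ / t) := by
        have : (1 - τ / t) * √A + √A * (sg - 1 + τ / t) = sg * √A := by ring
        linarith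
      have h6 : √(a t) ≤ √A * (1 - (1 - sg) * t / τ) := by
        have h7 : t / τ * (τ / t * √(a t)) ≤ t / τ * (√A * (sg - 1 + τ / t)) :=
          mul_le_mul_of_nonneg_left h5 (by positivity)
        have e3 : t / τ * (τ / t * √(a t)) = √(a t) := by
          field_simp
        have e4 : t / τ * (√A * (sg - 1 + τ / t)) = √A * (1 - (1 - sg) * t / τ) := by
          field_simp
          ring
        rw [e3, e4] at h7
        exact h7
      have h8 : 0 ≤ √A * (1 - (1 - sg) * t / τ) := le_trans (Real.sqrt_nonneg _) h6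
      have h9 : 0 ≤ 1 - (1 - sg) * t / τ := nonneg_of_mul_nonneg_right h8 hsA
      refine ⟨h9, ?_⟩
      have h10 : √(a t) ^ 2 ≤ (√A * (1 - (1 - sg) * t / τ)) ^ 2 :=
        pow_le_pow_left₀ (Real.sqrt_nonneg _) h6 2
      rw [Real.sq_sqrt (hnn t), mul_pow, hsA2] at h10
      exact h10
    have hTAIL : ∫ t in τ..M, a t ≤ ∫ t in τ..M, A * (1 - (1 - sg) * t / τ) ^ 2 :=
      intervalIntegral.integral_mono_on hτM.le (hint τ M hτ0 hM)
        ((by fun_prop : Continuous fun t : ℝ => A * (1 - (1 - sg) * t / τ) ^ 2).intervalIntegrable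
          _ _) (fun t ht => (htl t ht).2)
    rw [integral_quad A (1 - sg) τ τ M hτpos.ne'] at hTAIL
    set u := 1 - (1 - sg) * M / τ with hu
    have hu0 : 0 ≤ u := (htl M ⟨hτM.le, le_rfl⟩).1
    have hMu : M = τ * (1 - u) / (1 - sg) := by
      rw [hu]
      field_simp
      ring
    have e5 : A * (M - (1 - sg) * M ^ 2 / τ + (1 - sg) ^ 2 * M ^ 3 / (3 * τ ^ 2)) -
        A * (τ - (1 - sg) * τ ^ 2 / τ + (1 - sg) ^ 2 * τ ^ 3 / (3 * τ ^ 2)) =
        A * τ * (sg ^ 3 - u ^ 3) / (3 * (1 - sg)) := by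
      rw [hMu]
      field_simp
      ring
    rw [e5] at hTAIL
    have h11 : A * τ * (sg ^ 3 - u ^ 3) / (3 * (1 - sg)) ≤ c ^ 3 * V := by
      rw [div_le_iff₀ (by positivity), hAτ]
      have h12 : sg ^ 3 * (1 - c) ≤ c ^ 3 * (1 - sg) := by
        have h13 : sg ^ 3 ≤ c ^ 3 := pow_le_pow_left₀ hsg0 hsc.le 3
        have h14 : 1 - c ≤ 1 - sg := by linarith
        exact mul_le_mul h13 h14 (by linarith) (by positivity)
      have h15 : 0 ≤ u ^ 3 := by positivity
      have h16 : 0 ≤ (1 - c) * V := mul_nonneg (by linarith) hV0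
      nlinarith [mul_le_mul_of_nonneg_right h12 hV0, mul_nonneg h16 h15]
    linarith

end Vale.Agent.P243
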