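import Vale.Agent.P243.Transfer

/-!
# The refined volume bound for cylinder coverings, in literal form
-/

namespace Vale.Agent.P243

open MeasureTheory Set
open scoped Pointwise ENNReal NNReal

theorem hausdorff_coe_image (u : E3) (hu : ‖u‖ = 1) (S : Set (perp u)) :
    μHE[2] ((Subtype.val : perp u → E3) '' S) = volume S := by
  have h : μHE[2] ((Subtype.val : perp u → E3) '' S) = μHE[2] S :=
    (perp u).subtypeₗᵢ.isometry.euclideanHausdorffMeasure_image S
  rw [h, ← finrank_perp u hu, InnerProductSpace.euclideanHausdorffMeasure_eq_volume]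

theorem image_preimage_perp (u : E3) (B : Set E3) (hBu : ∀ b ∈ B, inner ℝ u b = 0) :
    (Subtype.val : perp u → E3) '' (Subtype.val ⁻¹' B) = B := by
  ext b
  constructor
  · rintro ⟨y, hy, rfl⟩
    exact hy
  · intro hb
    exact ⟨⟨b, Submodule.mem_orthogonal_singleton_iff_inner_right.2 (hBu b hb)⟩, hb, rfl⟩

theorem shadow_eq (K : Set E3) (u : E3) :
    shadow K u = (Subtype.val : perp u → E3) '' (proj u '' K) := by
  rw [Set.image_image]
  rfl

theorem planarArea_shadow (K : Set E3) (u : E3) (hu : ‖u‖ = 1) :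
    planarArea (shadow K u) = shadowArea K u := by
  rw [planarArea, shadow_eq, hausdorff_coe_image u hu]
  rfl

theorem cylinder_subset_cyl (u : E3) (B : Set E3) (hBu : ∀ b ∈ B, inner ℝ u b = 0)
    (B' : Set (perp u)) (h : Subtype.val ⁻¹' B ⊆ B') : cylinder u B ⊆ cyl u B' := by
  rintro x ⟨b, hb, t, rfl⟩
  exact ⟨⟨b, Submodule.mem_orthogonal_singleton_iff_inner_right.2 (hBu b hb)⟩, h hb, t, rfl⟩

/-- **Refined volume bound** for a cylinder `B + ℝ u` (no measurability of `B` is needed). -/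
theorem volume_inter_cylinder_le (K : Set E3) (hK : IsCompact K) (hKc : Convex ℝ K)
    (hKi : (interior K).Nonempty) (u : E3) (hu : ‖u‖ = 1) (B : Set E3)
    (hBu : ∀ b ∈ B, inner ℝ u b = 0) (hBfin : μHE[2] B ≠ ∞) (c : ℝ) (hc0 : 0 ≤ c) (hc1 : c ≤ 1) :
    volume (K ∩ cylinder u B) ≤
      ENNReal.ofReal (3 * (1 - c) * (planarArea B / planarArea (shadow K u)) + c ^ 3)
        * volume K := by
  set B₀ : Set (perp u) := Subtype.val ⁻¹' B with hB₀
  have h0 : μHE[2] B = volume B₀ := by
    rw [← hausdorff_coe_image u hu, image_preimage_perp u B hBu]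
  set B' : Set (perp u) := toMeasurable volume B₀ with hB'
  have h1 : volume B' = μHE[2] B := by rw [hB', measure_toMeasurable, h0]
  have h2 := volume_inter_cyl_le K hK hKc hKi u hu B' (measurableSet_toMeasurable _ _)
    (by rw [h1]; exact hBfin) c hc0 hc1
  have h3 : area B' = planarArea B := by rw [area, h1, planarArea]
  rw [h3, ← planarArea_shadow K u hu] at h2
  exact (measure_mono (Set.inter_subset_inter_right K
    (cylinder_subset_cyl u B hBu B' (subset_toMeasurable _ _)))).trans h2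

theorem planarArea_shadow_pos (K : Set E3) (hK : IsCompact K) (hKi : (interior K).Nonempty)
    (u : E3) (hu : ‖u‖ = 1) : 0 < planarArea (shadow K u) := by
  rw [planarArea_shadow K u hu]
  refine ENNReal.toReal_pos (shadow_pos K hKi u hu).ne' ?_
  have : IsCompact (proj u '' K) := hK.image (perp u).orthogonalProjectionOnto.continuous
  exact this.measure_lt_top.ne

/-- Covering bound, one parameter `c i ∈ [0, 1]` for each cylinder. -/
theorem covering_bound {ι : Type*} [Fintype ι] (K : Set E3) (hK : IsCompact K) (hKc : Convex ℝ K)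
    (hKi : (interior K).Nonempty) (u : ι → E3) (hu : ∀ i, ‖u i‖ = 1) (B : ι → Set E3)
    (hBu : ∀ i, ∀ b ∈ B i, inner ℝ (u i) b = 0) (hBfin : ∀ i, μHE[2] (B i) ≠ ∞)
    (hcov : K ⊆ ⋃ i, cylinder (u i) (B i)) (c : ι → ℝ) (hc0 : ∀ i, 0 ≤ c i) (hc1 : ∀ i, c i ≤ 1) :
    1 ≤ ∑ i, (3 * (1 - c i) * (planarArea (B i) / planarArea (shadow K (u i))) + c i ^ 3) := by
  have hpos : 0 < volume K :=
    (isOpen_interior.measure_pos volume hKi).trans_le (measure_mono interior_subset)
  have hfin : volume K ≠ ∞ := hK.measure_lt_top.ne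
  have hnn : ∀ i, 0 ≤ 3 * (1 - c i) * (planarArea (B i) / planarArea (shadow K (u i))) + c i ^ 3 := by
    intro i
    have h1 : 0 ≤ 1 - c i := sub_nonneg.2 (hc1 i)
    have h2 : 0 ≤ planarArea (B i) / planarArea (shadow K (u i)) :=
      div_nonneg ENNReal.toReal_nonneg ENNReal.toReal_nonneg
    have h3 := hc0 i
    positivity
  have h1 : volume K ≤ ∑ i, volume (K ∩ cylinder (u i) (B i)) := by
    calc volume K ≤ volume (⋃ i, K ∩ cylinder (u i) (B i)) := by
          apply measure_mono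
          rw [← Set.inter_iUnion]
          exact Set.subset_inter le_rfl hcov
      _ ≤ _ := measure_iUnion_fintype_le _ _
  have h2 : volume K ≤ ENNReal.ofReal
      (∑ i, (3 * (1 - c i) * (planarArea (B i) / planarArea (shadow K (u i))) + c i ^ 3))
        * volume K := by
    rw [ENNReal.ofReal_sum_of_nonneg fun i _ => hnn i, Finset.sum_mul]
    exact h1.trans (Finset.sum_le_sum fun i _ => volume_inter_cylinder_le K hK hKc hKi (u i) (hu i)
      (B i) (hBu i) (hBfin i) (c i) (hc0 i) (hc1 i))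
  have h3 := ENNReal.toReal_mono (ENNReal.mul_ne_top ENNReal.ofReal_ne_top hfin) h2
  rw [ENNReal.toReal_mul, ENNReal.toReal_ofReal (Finset.sum_nonneg fun i _ => hnn i)] at h3
  have h4 : 0 < (volume K).toReal := ENNReal.toReal_pos hpos.ne' hfin
  by_contra hcon
  rw [not_le] at hcon
  nlinarith

theorem starProjection_congr {p q : Submodule ℝ E3} (h : p = q) :
    p.starProjection = q.starProjection := by
  subst h
  rfl

theorem shadow_congr (K : Set E3) {u v : E3} (h : ℝ ∙ u = ℝ ∙ v) : shadow K u = shadow K v := by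
  unfold shadow
  rw [starProjection_congr (congrArg Submodule.orthogonal h)]

theorem cylinder_subset_of_span_eq {u v : E3} (h : ℝ ∙ u = ℝ ∙ v) {B B' : Set E3} (hB : B ⊆ B') :
    cylinder u B ⊆ cylinder v B' := by
  rintro x ⟨b, hb, t, rfl⟩
  have h1 : t • u ∈ ℝ ∙ v := by
    rw [← h]
    exact Submodule.smul_mem _ _ (Submodule.mem_span_singleton_self u)
  obtain ⟨t', ht'⟩ := Submodule.mem_span_singleton.1 h1
  exact ⟨b, hB hb, t', by rw [ht']⟩

theorem inner_eq_zero_of_span_eq {u v : E3} (h : ℝ ∙ u = ℝ ∙ v) {b : E3} (hb : inner ℝ u b = 0) :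
    inner ℝ v b = 0 := by
  have h1 : v ∈ ℝ ∙ u := by
    rw [h]
    exact Submodule.mem_span_singleton_self v
  obtain ⟨t, ht⟩ := Submodule.mem_span_singleton.1 h1
  rw [← ht, inner_smul_left, hb, mul_zero]

/-- Covering bound in terms of the number of axis directions. -/
theorem directions_bound {ι κ : Type*} [Fintype ι] [Fintype κ] (K : Set E3) (hK : IsCompact K)
    (hKc : Convex ℝ K) (hKi : (interior K).Nonempty) (u : ι → E3) (B : ι → Set E3)
    (hBu : ∀ i, ∀ b ∈ B i, inner ℝ (u i) b = 0) (hBfin : ∀ i, μHE[2] (B i) ≠ ∞)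
    (hcov : K ⊆ ⋃ i, cylinder (u i) (B i)) (v : κ → E3) (hv : ∀ k, ‖v k‖ = 1)
    (hdir : ∀ i, ∃ k, ℝ ∙ u i = ℝ ∙ v k) (c : ℝ) (hc0 : 0 ≤ c) (hc1 : c ≤ 1) :
    1 ≤ 3 * (1 - c) * (∑ i, planarArea (B i) / planarArea (shadow K (u i)))
      + Fintype.card κ * c ^ 3 := by
  classical
  choose j hj using hdir
  set B' : κ → Set E3 := fun k => ⋃ i ∈ Finset.univ.filter (fun i => j i = k), B i with hB'
  have hsub : ∀ i, B i ⊆ B' (j i) := by
    intro i b hb
    simp only [hB', Set.mem_iUnion]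
    exact ⟨i, by simp, hb⟩
  have hB'u : ∀ k, ∀ b ∈ B' k, inner ℝ (v k) b = 0 := by
    intro k b hb
    simp only [hB', Set.mem_iUnion, Finset.mem_filter, Finset.mem_univ, true_and] at hb
    obtain ⟨i, hik, hb⟩ := hb
    rw [← hik]
    exact inner_eq_zero_of_span_eq (hj i) (hBu i b hb)
  have hle : ∀ k, μHE[2] (B' k) ≤ ∑ i ∈ Finset.univ.filter (fun i => j i = k), μHE[2] (B i) :=
    fun k => measure_biUnion_finset_le _ _
  have hsumfin : ∀ k, ∑ i ∈ Finset.univ.filter (fun i => j i = k), μHE[2] (B i) ≠ ∞ :=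
    fun k => ENNReal.sum_ne_top.2 fun i _ => hBfin i
  have hB'fin : ∀ k, μHE[2] (B' k) ≠ ∞ := fun k => ne_top_of_le_ne_top (hsumfin k) (hle k)
  have hcov' : K ⊆ ⋃ k, cylinder (v k) (B' k) := by
    refine hcov.trans (Set.iUnion_subset fun i => ?_)
    exact (cylinder_subset_of_span_eq (hj i) (hsub i)).trans
      (Set.subset_iUnion (fun k => cylinder (v k) (B' k)) (j i))
  have h1 := covering_bound K hK hKc hKi v hv B' hB'u hB'fin hcov' (fun _ => c) (fun _ => hc0)
    (fun _ => hc1)
  have h2 : ∀ k, planarArea (B' k) / planarArea (shadow K (v k))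
      ≤ ∑ i ∈ Finset.univ.filter (fun i => j i = k),
        planarArea (B i) / planarArea (shadow K (u i)) := by
    intro k
    have h3 : planarArea (B' k) ≤ ∑ i ∈ Finset.univ.filter (fun i => j i = k), planarArea (B i) := by
      have := ENNReal.toReal_mono (hsumfin k) (hle k)
      rwa [ENNReal.toReal_sum fun i _ => hBfin i] at this
    calc planarArea (B' k) / planarArea (shadow K (v k))
        ≤ (∑ i ∈ Finset.univ.filter (fun i => j i = k), planarArea (B i))
          / planarArea (shadow K (v k)) :=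
          div_le_div_of_nonneg_right h3 ENNReal.toReal_nonneg
      _ = _ := by
          rw [Finset.sum_div]
          apply Finset.sum_congr rfl
          intro i hi
          rw [shadow_congr K (hj i), (Finset.mem_filter.1 hi).2]
  have h4 : ∑ k, planarArea (B' k) / planarArea (shadow K (v k))
      ≤ ∑ i, planarArea (B i) / planarArea (shadow K (u i)) := by
    refine (Finset.sum_le_sum fun k _ => h2 k).trans (le_of_eq ?_)
    exact Finset.sum_fiberwise Finset.univ j _
  have h5 : ∑ k : κ, (3 * (1 - c) * (planarArea (B' k) / planarArea (shadow K (v k))) + c ^ 3)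
      = 3 * (1 - c) * (∑ k, planarArea (B' k) / planarArea (shadow K (v k)))
        + Fintype.card κ * c ^ 3 := by
    rw [Finset.sum_add_distrib, ← Finset.mul_sum]
    simp
  rw [h5] at h1
  have h6 : 0 ≤ 3 * (1 - c) := by linarith
  nlinarith [mul_le_mul_of_nonneg_left h4 h6]

theorem minShadowArea_le (K : Set E3) (u : E3) (hu : ‖u‖ = 1) :
    minShadowArea K ≤ planarArea (shadow K u) := by
  have hbdd : BddBelow (Set.range fun u : {u : E3 // ‖u‖ = 1} => planarArea (shadow K u)) :=
    ⟨0, by rintro _ ⟨w, rfl⟩; exact ENNReal.toReal_nonneg⟩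
  exact ciInf_le hbdd ⟨u, hu⟩

theorem minShadowArea_nonneg (K : Set E3) : 0 ≤ minShadowArea K :=
  Real.iInf_nonneg fun _ => ENNReal.toReal_nonneg

/-- From the relative form to the absolute form (with the minimal shadow area). -/
theorem absolute_of_relative {ι : Type*} [Fintype ι] (K : Set E3) (hK : IsCompact K)
    (hKi : (interior K).Nonempty) (u : ι → E3) (hu : ∀ i, ‖u i‖ = 1) (B : ι → Set E3) (θ : ℝ)
    (h : θ ≤ ∑ i, planarArea (B i) / planarArea (shadow K (u i))) :
    θ * minShadowArea K ≤ ∑ i, planarArea (B i) := by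
  have h1 : ∀ i, planarArea (B i) / planarArea (shadow K (u i)) * minShadowArea K
      ≤ planarArea (B i) := by
    intro i
    have hp := planarArea_shadow_pos K hK hKi (u i) (hu i)
    have hm := minShadowArea_le K (u i) (hu i)
    have hb : 0 ≤ planarArea (B i) := ENNReal.toReal_nonneg
    rw [div_mul_eq_mul_div, div_le_iff₀ hp]
    exact mul_le_mul_of_nonneg_left hm hb
  calc θ * minShadowArea K
      ≤ (∑ i, planarArea (B i) / planarArea (shadow K (u i))) * minShadowArea K :=
        mul_le_mul_of_nonneg_right h (minShadowArea_nonneg K)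
    _ = ∑ i, planarArea (B i) / planarArea (shadow K (u i)) * minShadowArea K := Finset.sum_mul _ _ _
    _ ≤ _ := Finset.sum_le_sum fun i _ => h1 i

theorem span_neg_singleton (v : E3) : ℝ ∙ (-v) = ℝ ∙ v := by
  rw [← Set.neg_singleton, Submodule.span_neg]

theorem span_eq_of_eq_or_neg {u v : E3} (h : u = v ∨ u = -v) : ℝ ∙ u = ℝ ∙ v := by
  rcases h with rfl | rfl
  · rfl
  · exact span_neg_singleton v

/-- The sharp bound `1 / 2` for coverings with at most two axis directions. -/
theorem two_directions {ι : Type*} [Fintype ι] (K : Set E3) (hK : IsCompact K)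
    (hKc : Convex ℝ K) (hKi : (interior K).Nonempty) (u : ι → E3) (B : ι → Set E3)
    (hBu : ∀ i, ∀ b ∈ B i, inner ℝ (u i) b = 0) (hBfin : ∀ i, μHE[2] (B i) ≠ ∞)
    (hcov : K ⊆ ⋃ i, cylinder (u i) (B i)) (v w : E3) (hv : ‖v‖ = 1) (hw : ‖w‖ = 1)
    (hdir : ∀ i, u i = v ∨ u i = -v ∨ u i = w ∨ u i = -w) :
    1 / 2 ≤ ∑ i, planarArea (B i) / planarArea (shadow K (u i)) := by
  have h := directions_bound K hK hKc hKi u B hBu hBfin hcov (fun k : Bool => if k then v else w)
    (by intro k; cases k <;> simp [hv, hw])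
    (by
      intro i
      rcases hdir i with h | h | h | h
      · exact ⟨true, span_eq_of_eq_or_neg (Or.inl h)⟩
      · exact ⟨true, span_eq_of_eq_or_neg (Or.inr h)⟩
      · exact ⟨false, span_eq_of_eq_or_neg (Or.inl h)⟩
      · exact ⟨false, span_eq_of_eq_or_neg (Or.inr h)⟩)
    (1 / 2) (by norm_num) (by norm_num)
  rw [Fintype.card_bool] at h
  norm_num at h
  linarith

/-- The explicit bound in terms of the number `m` of axis directions. -/
theorem explicit_of_parametric (m : ℕ) (hm : 1 ≤ m) (R : ℝ)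
    (h : ∀ c : ℝ, 0 ≤ c → c ≤ 1 → 1 ≤ 3 * (1 - c) * R + m * c ^ 3) :
    1 / 3 + 2 / (9 * √(3 * m)) ≤ R := by
  have hm' : (1 : ℝ) ≤ m := by exact_mod_cast hm
  set s : ℝ := √(3 * m) with hs
  have hs2 : s ^ 2 = 3 * m := Real.sq_sqrt (by positivity)
  have hs1 : 1 < s := by
    rw [hs, Real.lt_sqrt (by norm_num)]
    linarith
  have hs0 : 0 < s := by linarith
  set c : ℝ := 1 / s with hc
  have hc0 : 0 < c := by positivity
  have hc1 : c < 1 := by
    rw [hc, div_lt_one hs0]
    exact hs1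
  have hcs : c * s = 1 := by
    rw [hc]
    field_simp
  have hmc : (m : ℝ) * c ^ 2 = 1 / 3 := by
    have : (3 * (m : ℝ)) * c ^ 2 = 1 := by
      rw [← hs2]
      calc s ^ 2 * c ^ 2 = (c * s) ^ 2 := by ring
        _ = 1 := by rw [hcs]; norm_num
    linarith
  have h1 := h c hc0.le hc1.le
  have h2 : (m : ℝ) * c ^ 3 = c / 3 := by
    calc (m : ℝ) * c ^ 3 = ((m : ℝ) * c ^ 2) * c := by ring
      _ = c / 3 := by rw [hmc]; ring
  rw [h2] at h1
  have h3 : 2 / (9 * s) = 2 * c / 9 := by
    rw [hc]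
    field_simp
  rw [h3]
  by_contra hcon
  rw [not_le] at hcon
  have h4 : 0 < 3 * (1 - c) := by linarith
  nlinarith [mul_lt_mul_of_pos_left hcon h4, sq_nonneg c]

/-- The refined inequality `∑ (3 ρ - 2 ρ √ρ) ≥ 1`. -/
theorem refined_bound {ι : Type*} [Fintype ι] (K : Set E3) (hK : IsCompact K) (hKc : Convex ℝ K)
    (hKi : (interior K).Nonempty) (u : ι → E3) (hu : ∀ i, ‖u i‖ = 1) (B : ι → Set E3)
    (hBu : ∀ i, ∀ b ∈ B i, inner ℝ (u i) b = 0) (hBfin : ∀ i, μHE[2] (B i) ≠ ∞)
    (hcov : K ⊆ ⋃ i, cylinder (u i) (B i)) (ρ : ι → ℝ)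
    (hρ : ∀ i, ρ i = min 1 (planarArea (B i) / planarArea (shadow K (u i)))) :
    1 ≤ ∑ i, (3 * ρ i - 2 * ρ i * √(ρ i)) := by
  have hρ0 : ∀ i, 0 ≤ ρ i := by
    intro i
    rw [hρ i]
    exact le_min zero_le_one (div_nonneg ENNReal.toReal_nonneg ENNReal.toReal_nonneg)
  have hρ1 : ∀ i, ρ i ≤ 1 := by
    intro i
    rw [hρ i]
    exact min_le_left _ _
  have h := covering_bound K hK hKc hKi u hu B hBu hBfin hcov (fun i => √(ρ i))
    (fun i => Real.sqrt_nonneg _) (fun i => Real.sqrt_le_one.2 (hρ1 i))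
  refine h.trans (le_of_eq (Finset.sum_congr rfl fun i _ => ?_))
  have hsq : √(ρ i) ^ 2 = ρ i := Real.sq_sqrt (hρ0 i)
  rcases le_total (planarArea (B i) / planarArea (shadow K (u i))) 1 with hle | hle
  · have h1 : planarArea (B i) / planarArea (shadow K (u i)) = ρ i := by
      rw [hρ i, min_eq_right hle]
    rw [h1]
    have : √(ρ i) ^ 3 = ρ i * √(ρ i) := by
      calc √(ρ i) ^ 3 = √(ρ i) ^ 2 * √(ρ i) := by ring
        _ = _ := by rw [hsq]
    rw [this]
    ring
  · have h1 : ρ i = 1 := by rw [hρ i, min_eq_left hle]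
    rw [h1]
    simp
    norm_num

end Vale.Agent.P243
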