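import Vale.Agent.P243.Sec
import Vale.Agent.P243.CapBound

/-!
# The refined volume bound in `F × ℝ`
-/

namespace Vale.Agent.P243

open MeasureTheory Set
open scoped Pointwise ENNReal

set_option linter.unusedSectionVars false

variable {F : Type*} [NormedAddCommGroup F] [NormedSpace ℝ F] [FiniteDimensional ℝ F]
  [MeasurableSpace F] [BorelSpace F]

/-- The two-dimensional Brunn-Minkowski inequality for the measure `μ` (for compact convex sets). -/
def BM2 (μ : Measure F) : Prop :=
  ∀ P Q : Set F, IsCompact P → Convex ℝ P → P.Nonempty → IsCompact Q → Convex ℝ Q → Q.Nonempty →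
    ∀ l : ℝ, 0 ≤ l → l ≤ 1 →
      (1 - l) * √((μ P).toReal) + l * √((μ Q).toReal) ≤ √((μ ((1 - l) • P + l • Q)).toReal)

/-- Tonelli plus the layer cake formula. -/
theorem prod_inter_eq (μ : Measure F) [SFinite μ] {K : Set (F × ℝ)} (hK : IsCompact K)
    (hKc : Convex ℝ K) {B : Set F} (hB : MeasurableSet B) :
    (μ.prod volume) (K ∩ B ×ˢ univ) = ∫⁻ t in Ioi (0 : ℝ), μ (sec K t ∩ B) := by
  have hKm : MeasurableSet K := hK.isClosed.measurableSet
  have hm : MeasurableSet (K ∩ B ×ˢ (univ : Set ℝ)) := hKm.inter (hB.prod MeasurableSet.univ)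
  rw [Measure.prod_apply hm]
  have hmeas : Measurable fun y => volume (fib K y) := measurable_measure_prodMk_left hKm
  have h1 : ∀ y, volume (Prod.mk y ⁻¹' (K ∩ B ×ˢ (univ : Set ℝ)))
      = B.indicator (fun y => ENNReal.ofReal (ell K y)) y := by
    intro y
    by_cases hy : y ∈ B
    · rw [Set.indicator_of_mem hy]
      have : Prod.mk y ⁻¹' (K ∩ B ×ˢ (univ : Set ℝ)) = fib K y := by
        ext t
        simp [fib, hy]
      rw [this, ell, ENNReal.ofReal_toReal (fib_compact hK y).measure_lt_top.ne]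
    · rw [Set.indicator_of_notMem hy]
      have : Prod.mk y ⁻¹' (K ∩ B ×ˢ (univ : Set ℝ)) = ∅ := by
        ext t
        simp [hy]
      rw [this, measure_empty]
  simp_rw [h1]
  rw [lintegral_indicator hB]
  have hmeas' : Measurable (ell K) := hmeas.ennreal_toReal
  rw [lintegral_eq_lintegral_meas_le (μ.restrict B) (f := ell K)
    (Filter.Eventually.of_forall fun y => ENNReal.toReal_nonneg) hmeas'.aemeasurable]
  apply setLIntegral_congr_fun measurableSet_Ioi
  intro t ht
  have hs : MeasurableSet (sec K t) := (sec_compact hK t).isClosed.measurableSet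
  simp only
  rw [← sec_eq_ell hK hKc ht, Measure.restrict_apply hs]

/-- Reduction of a `lintegral` over `(0, ∞)` of a function vanishing beyond `M` to an interval
integral. -/
theorem lintegral_Ioi_le_ofReal {g : ℝ → ℝ≥0∞} {f : ℝ → ℝ} {M : ℝ} (hM : 0 ≤ M)
    (hf : IntervalIntegrable f volume 0 M) (hf0 : ∀ t, 0 ≤ f t)
    (hgf : ∀ t, 0 < t → t ≤ M → g t ≤ ENNReal.ofReal (f t)) (hg0 : ∀ t, M < t → g t = 0) :
    ∫⁻ t in Ioi (0 : ℝ), g t ≤ ENNReal.ofReal (∫ t in (0 : ℝ)..M, f t) := by
  rw [← Ioc_union_Ioi_eq_Ioi hM, lintegral_union measurableSet_Ioi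
    (Set.disjoint_left.2 fun x hx hx' => absurd hx.2 (not_le.2 hx'))]
  have h2 : ∫⁻ t in Ioi M, g t = 0 := by
    rw [setLIntegral_congr_fun measurableSet_Ioi (g := fun _ => 0) (fun t ht => hg0 t ht)]
    simp
  rw [h2, add_zero, intervalIntegral.integral_of_le hM,
    ofReal_integral_eq_lintegral_ofReal ((intervalIntegrable_iff_integrableOn_Ioc_of_le hM).1 hf)
      (Filter.Eventually.of_forall hf0)]
  exact setLIntegral_mono' measurableSet_Ioc fun t ht => hgf t ht.1 ht.2

theorem lintegral_Ioi_eq_ofReal {g : ℝ → ℝ≥0∞} {f : ℝ → ℝ} {M : ℝ} (hM : 0 ≤ M)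
    (hf : IntervalIntegrable f volume 0 M) (hf0 : ∀ t, 0 ≤ f t)
    (hgf : ∀ t, 0 < t → t ≤ M → g t = ENNReal.ofReal (f t)) (hg0 : ∀ t, M < t → g t = 0) :
    ∫⁻ t in Ioi (0 : ℝ), g t = ENNReal.ofReal (∫ t in (0 : ℝ)..M, f t) := by
  rw [← Ioc_union_Ioi_eq_Ioi hM, lintegral_union measurableSet_Ioi
    (Set.disjoint_left.2 fun x hx hx' => absurd hx.2 (not_le.2 hx'))]
  have h2 : ∫⁻ t in Ioi M, g t = 0 := by
    rw [setLIntegral_congr_fun measurableSet_Ioi (g := fun _ => 0) (fun t ht => hg0 t ht)]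
    simp
  rw [h2, add_zero, intervalIntegral.integral_of_le hM,
    ofReal_integral_eq_lintegral_ofReal ((intervalIntegrable_iff_integrableOn_Ioc_of_le hM).1 hf)
      (Filter.Eventually.of_forall hf0)]
  exact setLIntegral_congr_fun measurableSet_Ioc fun t ht => hgf t ht.1 ht.2

/-- **Refined volume bound**: the part of a convex body `K ⊆ F × ℝ` lying over a set `B` of the
base has volume at most `(3 (1 - c) |B| / |π K| + c ^ 3) vol K`, for every `c ∈ [0, 1]`. -/
theorem core_KL (μ : Measure F) [μ.IsAddHaarMeasure] (hBM : BM2 μ) {K : Set (F × ℝ)}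
    (hK : IsCompact K) (hKc : Convex ℝ K) (hA : 0 < μ (Prod.fst '' K)) {B : Set F}
    (hB : MeasurableSet B) (hBfin : μ B ≠ ∞) (c : ℝ) (hc0 : 0 ≤ c) (hc1 : c ≤ 1) :
    (μ.prod volume) (K ∩ B ×ˢ univ) ≤
      ENNReal.ofReal (3 * (1 - c) * ((μ B).toReal / (μ (Prod.fst '' K)).toReal) + c ^ 3)
        * (μ.prod volume) K := by
  have hKn : K.Nonempty := by
    by_contra hcon
    rw [Set.not_nonempty_iff_eq_empty] at hcon
    simp [hcon] at hA
  obtain ⟨M, hM, hMne, hMempty⟩ := exists_max_chord hK hKn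
  set a : ℝ → ℝ := fun t => (μ (sec K t)).toReal with ha
  have hfin : ∀ t, μ (sec K t) ≠ ∞ := fun t => (sec_compact hK t).measure_lt_top.ne
  have hanti : ∀ s t, 0 ≤ s → s ≤ t → a t ≤ a s := fun s t _ hst =>
    ENNReal.toReal_mono (hfin s) (measure_mono (sec_anti K hst))
  have hnn : ∀ t, 0 ≤ a t := fun t => ENNReal.toReal_nonneg
  have ha0 : a 0 = (μ (Prod.fst '' K)).toReal := by simp only [ha, sec_zero]
  have hA' : 0 < a 0 := by
    rw [ha0]
    refine ENNReal.toReal_pos hA.ne' ?_
    rw [← sec_zero]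
    exact hfin 0
  have hbrunn : ∀ s t, 0 ≤ s → s ≤ t → 0 < t → t ≤ M →
      (1 - s / t) * √(a 0) + (s / t) * √(a t) ≤ √(a s) := by
    intro s t hs hst ht htM
    have hl0 : 0 ≤ s / t := div_nonneg hs ht.le
    have hl1 : s / t ≤ 1 := (div_le_one ht).2 hst
    have h1 := hBM (sec K 0) (sec K t) (sec_compact hK 0) (sec_convex hKc 0)
      (hMne.mono (sec_anti K hM)) (sec_compact hK t) (sec_convex hKc t)
      (hMne.mono (sec_anti K htM)) (s / t) hl0 hl1
    refine h1.trans (Real.sqrt_le_sqrt ?_)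
    have h2 := sec_mix hKc 0 t (s / t) hl0 hl1
    have h3 : (1 - s / t) * 0 + s / t * t = s := by
      field_simp
      ring
    rw [h3] at h2
    exact ENNReal.toReal_mono (hfin s) (measure_mono h2)
  have hint : IntervalIntegrable a volume 0 M := by
    apply AntitoneOn.intervalIntegrable
    intro s hs t _ hst
    rw [Set.uIcc_of_le hM] at hs
    exact hanti s t hs.1 hst
  set b : ℝ := (μ B).toReal with hb
  have hb0 : 0 ≤ b := ENNReal.toReal_nonneg
  have hint' : IntervalIntegrable (fun t => min b (a t)) volume 0 M := by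
    apply AntitoneOn.intervalIntegrable
    intro s hs t _ hst
    rw [Set.uIcc_of_le hM] at hs
    exact min_le_min le_rfl (hanti s t hs.1 hst)
  have hcap := cap_bound a M hM hanti hnn hbrunn hA' c hc0 hc1 b hb0
  have hV : (μ.prod volume) K = ENNReal.ofReal (∫ t in (0 : ℝ)..M, a t) := by
    have h1 := prod_inter_eq μ hK hKc (B := univ) MeasurableSet.univ
    rw [Set.univ_prod_univ, Set.inter_univ] at h1
    rw [h1]
    apply lintegral_Ioi_eq_ofReal hM hint hnn
    · intro t _ _
      rw [Set.inter_univ, ENNReal.ofReal_toReal (hfin t)]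
    · intro t ht
      rw [hMempty t ht]
      simp
  have hL : (μ.prod volume) (K ∩ B ×ˢ univ) ≤ ENNReal.ofReal (∫ t in (0 : ℝ)..M, min b (a t)) := by
    rw [prod_inter_eq μ hK hKc hB]
    apply lintegral_Ioi_le_ofReal hM hint' (fun t => le_min hb0 (hnn t))
    · intro t _ _
      rw [ENNReal.le_ofReal_iff_toReal_le
        (ne_top_of_le_ne_top hBfin (measure_mono Set.inter_subset_right)) (le_min hb0 (hnn t))]
      exact le_min (ENNReal.toReal_mono hBfin (measure_mono Set.inter_subset_right))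
        (ENNReal.toReal_mono (hfin t) (measure_mono Set.inter_subset_left))
    · intro t ht
      rw [hMempty t ht]
      simp
  rw [hV, ← ENNReal.ofReal_mul (by rw [← ha0]; positivity), ← ha0]
  exact hL.trans (ENNReal.ofReal_le_ofReal hcap)

end Vale.Agent.P243
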