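import Mathlib

/-!
# Cylinders in Euclidean 3-space, planar areas and shadows
-/

namespace Vale.Agent.P243

open MeasureTheory

/-- Euclidean 3-space. -/
abbrev E3 : Type := EuclideanSpace ℝ (Fin 3)

/-- The cylinder `B + ℝ u` with base `B` and axis direction `u`. -/
def cylinder (u : E3) (B : Set E3) : Set E3 := {x | ∃ b ∈ B, ∃ t : ℝ, x = b + t • u}

/-- The planar area of a subset of a plane of `E3`: its two-dimensional Euclidean Hausdorff
measure `μHE[2]`, which is normalised so as to agree with Lebesgue measure on every plane. -/
noncomputable def planarArea (S : Set E3) : ℝ := (μHE[2] S).toReal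

/-- The orthogonal projection of `K` onto the plane `u^⊥` through the origin. -/
noncomputable def shadow (K : Set E3) (u : E3) : Set E3 := (ℝ ∙ u)ᗮ.starProjection '' K

/-- The smallest area of an orthogonal projection of `K` onto a plane. -/
noncomputable def minShadowArea (K : Set E3) : ℝ :=
  ⨅ u : {u : E3 // ‖u‖ = 1}, planarArea (shadow K u)

end Vale.Agent.P243
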