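import Mathlib

/-!
# The Brunn-Minkowski inequality for compact convex sets in the plane `ℝ × ℝ`
-/

namespace Vale.Agent.P243

open MeasureTheory Set
open scoped Pointwise

/-- Length of the vertical section of `P` over `x`. -/
noncomputable def secLen (P : Set (ℝ × ℝ)) (x : ℝ) : ℝ := (volume (Prod.mk x ⁻¹' P)).toReal

lemma secLen_nonneg (P : Set (ℝ × ℝ)) (x : ℝ) : 0 ≤ secLen P x := ENNReal.toReal_nonneg

lemma measurable_secLen {P : Set (ℝ × ℝ)} (hP : MeasurableSet P) : Measurable (secLen P) :=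
  (measurable_measure_prodMk_left hP).ennreal_toReal

lemma sec_subset_Icc {P : Set (ℝ × ℝ)} (hP : IsCompact P) (x : ℝ) :
    Prod.mk x ⁻¹' P ⊆ Icc (sInf (Prod.snd '' P)) (sSup (Prod.snd '' P)) := by
  intro y hy
  have hc : IsCompact (Prod.snd '' P) := hP.image continuous_snd
  have hmem : y ∈ Prod.snd '' P := ⟨(x, y), hy, rfl⟩
  exact ⟨csInf_le hc.bddBelow hmem, le_csSup hc.bddAbove hmem⟩

lemma sec_volume_lt_top {P : Set (ℝ × ℝ)} (hP : IsCompact P) (x : ℝ) :
    volume (Prod.mk x ⁻¹' P) < ⊤ :=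
  lt_of_le_of_lt (measure_mono (sec_subset_Icc hP x)) (by simp)

lemma secLen_le {P : Set (ℝ × ℝ)} (hP : IsCompact P) (x : ℝ) :
    secLen P x ≤ |sSup (Prod.snd '' P) - sInf (Prod.snd '' P)| := by
  unfold secLen
  apply ENNReal.toReal_le_of_le_ofReal (abs_nonneg _)
  refine (measure_mono (sec_subset_Icc hP x)).trans ?_
  rw [Real.volume_Icc]
  exact ENNReal.ofReal_le_ofReal (le_abs_self _)

lemma volume_eq_lintegral {P : Set (ℝ × ℝ)} (hP : IsCompact P) :
    volume P = ∫⁻ x, volume (Prod.mk x ⁻¹' P) := by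
  rw [Measure.volume_eq_prod, Measure.prod_apply hP.isClosed.measurableSet]

lemma integrable_secLen {P : Set (ℝ × ℝ)} (hP : IsCompact P) : Integrable (secLen P) := by
  apply integrable_toReal_of_lintegral_ne_top
  · exact (measurable_measure_prodMk_left hP.isClosed.measurableSet).aemeasurable
  · rw [← volume_eq_lintegral hP]
    exact hP.measure_lt_top.ne

lemma volume_toReal_eq_integral {P : Set (ℝ × ℝ)} (hP : IsCompact P) :
    (volume P).toReal = ∫ x, secLen P x := by
  rw [volume_eq_lintegral hP]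
  unfold secLen
  rw [integral_toReal]
  · exact (measurable_measure_prodMk_left hP.isClosed.measurableSet).aemeasurable
  · exact Filter.Eventually.of_forall (fun x => sec_volume_lt_top hP x)

lemma intervalIntegrable_secLen_comp {P : Set (ℝ × ℝ)} (hP : IsCompact P) (a m : ℝ) :
    IntervalIntegrable (fun θ => secLen P (a + m * θ)) volume 0 1 := by
  rw [intervalIntegrable_iff_integrableOn_Ioc_of_le (by norm_num)]
  refine Integrable.of_bound (C := |sSup (Prod.snd '' P) - sInf (Prod.snd '' P)|) ?_ ?_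
  · apply Measurable.aestronglyMeasurable
    exact (measurable_secLen hP.isClosed.measurableSet).comp (by fun_prop)
  · refine Filter.Eventually.of_forall (fun θ => ?_)
    rw [Real.norm_of_nonneg (secLen_nonneg _ _)]
    exact secLen_le hP _

/-- The volume as a normalised integral of section lengths. -/
lemma volume_eq_mul {P : Set (ℝ × ℝ)} (hP : IsCompact P) {a b : ℝ} (hab : a ≤ b)
    (h : ∀ p ∈ P, a ≤ p.1 ∧ p.1 ≤ b) :
    (volume P).toReal = (b - a) * ∫ θ in (0:ℝ)..1, secLen P (a + (b - a) * θ) := by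
  have h1 : (b - a) * ∫ θ in (0:ℝ)..1, secLen P (a + (b - a) * θ)
      = ∫ x in a..b, secLen P x := by
    have := intervalIntegral.smul_integral_comp_add_mul (a := (0:ℝ)) (b := 1)
      (f := secLen P) (b - a) a
    simp only [smul_eq_mul, mul_zero, add_zero, mul_one, add_sub_cancel] at this
    exact this
  rw [h1, volume_toReal_eq_integral hP, intervalIntegral.integral_of_le hab,
    ← integral_Icc_eq_integral_Ioc]
  symm
  apply setIntegral_eq_integral_of_forall_compl_eq_zero
  intro x hx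
  have hempty : Prod.mk x ⁻¹' P = ∅ := by
    ext y
    simp only [mem_preimage, mem_empty_iff_false, iff_false]
    intro hy
    exact hx (h _ hy)
  simp [secLen, hempty]

lemma volume_ge_mul {S : Set (ℝ × ℝ)} (hS : IsCompact S) {a b : ℝ} (hab : a ≤ b) :
    (b - a) * ∫ θ in (0:ℝ)..1, secLen S (a + (b - a) * θ) ≤ (volume S).toReal := by
  have h1 : (b - a) * ∫ θ in (0:ℝ)..1, secLen S (a + (b - a) * θ)
      = ∫ x in a..b, secLen S x := by
    have := intervalIntegral.smul_integral_comp_add_mul (a := (0:ℝ)) (b := 1)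
      (f := secLen S) (b - a) a
    simp only [smul_eq_mul, mul_zero, add_zero, mul_one, add_sub_cancel] at this
    exact this
  rw [h1, volume_toReal_eq_integral hS, intervalIntegral.integral_of_le hab]
  exact setIntegral_le_integral (integrable_secLen hS)
    (Filter.Eventually.of_forall (fun x => secLen_nonneg S x))

/-- Section lengths are superadditive under Minkowski combinations. -/
lemma secLen_combo {P Q : Set (ℝ × ℝ)} (hP : IsCompact P) (hPc : Convex ℝ P)
    (hQ : IsCompact Q) (hQc : Convex ℝ Q) {l : ℝ} (hl0 : 0 ≤ l) (hl1 : l ≤ 1)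
    {x x' : ℝ} (hx : (Prod.mk x ⁻¹' P).Nonempty) (hx' : (Prod.mk x' ⁻¹' Q).Nonempty) :
    (1 - l) * secLen P x + l * secLen Q x'
      ≤ secLen ((1 - l) • P + l • Q) ((1 - l) * x + l * x') := by
  set S : Set (ℝ × ℝ) := (1 - l) • P + l • Q with hSdef
  have hS : IsCompact S := (hP.smul _).add (hQ.smul _)
  have hSc : Convex ℝ S := (hPc.smul _).add (hQc.smul _)
  -- sections are compact
  have hcP : IsCompact (Prod.mk x ⁻¹' P) :=
    isCompact_Icc.of_isClosed_subset (hP.isClosed.preimage (by fun_prop)) (sec_subset_Icc hP x)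
  have hcQ : IsCompact (Prod.mk x' ⁻¹' Q) :=
    isCompact_Icc.of_isClosed_subset (hQ.isClosed.preimage (by fun_prop)) (sec_subset_Icc hQ x')
  set a := sInf (Prod.mk x ⁻¹' P)
  set b := sSup (Prod.mk x ⁻¹' P)
  set c := sInf (Prod.mk x' ⁻¹' Q)
  set d := sSup (Prod.mk x' ⁻¹' Q)
  have ha : (x, a) ∈ P := hcP.sInf_mem hx
  have hb : (x, b) ∈ P := hcP.sSup_mem hx
  have hc : (x', c) ∈ Q := hcQ.sInf_mem hx'
  have hd : (x', d) ∈ Q := hcQ.sSup_mem hx'
  have hab : a ≤ b := csInf_le hcP.bddBelow hb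
  have hcd : c ≤ d := csInf_le hcQ.bddBelow hd
  have hlenP : secLen P x ≤ b - a := by
    unfold secLen
    apply ENNReal.toReal_le_of_le_ofReal (by linarith)
    rw [← Real.volume_Icc]
    exact measure_mono (fun y hy => ⟨csInf_le hcP.bddBelow hy, le_csSup hcP.bddAbove hy⟩)
  have hlenQ : secLen Q x' ≤ d - c := by
    unfold secLen
    apply ENNReal.toReal_le_of_le_ofReal (by linarith)
    rw [← Real.volume_Icc]
    exact measure_mono (fun y hy => ⟨csInf_le hcQ.bddBelow hy, le_csSup hcQ.bddAbove hy⟩)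
  have hmem : ∀ y y', (x, y) ∈ P → (x', y') ∈ Q →
      ((1 - l) * x + l * x', (1 - l) * y + l * y') ∈ S := by
    intro y y' hy hy'
    refine Set.mem_add.2 ⟨(1 - l) • (x, y), Set.smul_mem_smul_set hy, l • (x', y'),
      Set.smul_mem_smul_set hy', ?_⟩
    simp [Prod.smul_mk]
  have hsecc : Convex ℝ (Prod.mk ((1 - l) * x + l * x') ⁻¹' S) := by
    intro y hy y' hy' s t hs ht hst
    have := hSc hy hy' hs ht hst
    simp only [mem_preimage] at *
    have e : s • ((1 - l) * x + l * x', y) + t • ((1 - l) * x + l * x', y')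
        = ((1 - l) * x + l * x', s • y + t • y') := by
      ext
      · simp only [Prod.smul_mk, Prod.mk_add_mk, smul_eq_mul]
        rw [← add_mul, hst, one_mul]
      · simp
    rwa [e] at this
  have hsub : Icc ((1 - l) * a + l * c) ((1 - l) * b + l * d)
      ⊆ Prod.mk ((1 - l) * x + l * x') ⁻¹' S :=
    hsecc.ordConnected.out (hmem _ _ ha hc) (hmem _ _ hb hd)
  have hlenS : (1 - l) * (b - a) + l * (d - c) ≤ secLen S ((1 - l) * x + l * x') := by
    unfold secLen
    have h1 : ENNReal.ofReal ((1 - l) * (b - a) + l * (d - c))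
        ≤ volume (Prod.mk ((1 - l) * x + l * x') ⁻¹' S) := by
      refine le_trans (le_of_eq ?_) (measure_mono hsub)
      rw [Real.volume_Icc]
      congr 1
      ring
    exact (ENNReal.ofReal_le_iff_le_toReal (sec_volume_lt_top hS _).ne).1 h1
  have h1l : 0 ≤ 1 - l := by linarith
  calc (1 - l) * secLen P x + l * secLen Q x'
      ≤ (1 - l) * (b - a) + l * (d - c) :=
        add_le_add (mul_le_mul_of_nonneg_left hlenP h1l) (mul_le_mul_of_nonneg_left hlenQ hl0)
    _ ≤ _ := hlenS

lemma real_ineq {u l m m' I I' V : ℝ} (hu : 0 ≤ u) (hl : 0 ≤ l) (hm : 0 ≤ m) (hm' : 0 ≤ m')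
    (hI : 0 ≤ I) (hI' : 0 ≤ I') (hV : (u * m + l * m') * (u * I + l * I') ≤ V) :
    u * √(m * I) + l * √(m' * I') ≤ √V := by
  apply Real.le_sqrt_of_sq_le
  refine le_trans ?_ hV
  have h1 : √(m * I) ^ 2 = m * I := Real.sq_sqrt (mul_nonneg hm hI)
  have h2 : √(m' * I') ^ 2 = m' * I' := Real.sq_sqrt (mul_nonneg hm' hI')
  have h3 : √(m * I) * √(m' * I') ≤ (m * I' + m' * I) / 2 := by
    rw [← Real.sqrt_mul (mul_nonneg hm hI)]
    apply Real.sqrt_le_iff.2
    constructor
    · positivity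
    · nlinarith [sq_nonneg (m * I' - m' * I)]
  have h4 : 0 ≤ u * l := mul_nonneg hu hl
  have h5 : (u * √(m * I) + l * √(m' * I')) ^ 2
      = u ^ 2 * (m * I) + 2 * ((u * l) * (√(m * I) * √(m' * I'))) + l ^ 2 * (m' * I') := by
    have : (u * √(m * I) + l * √(m' * I')) ^ 2
      = u ^ 2 * √(m * I) ^ 2 + 2 * ((u * l) * (√(m * I) * √(m' * I'))) + l ^ 2 * √(m' * I') ^ 2 := by
      ring
    rw [this, h1, h2]
  rw [h5]
  nlinarith [mul_le_mul_of_nonneg_left h3 h4]

/-- Brunn-Minkowski inequality for nonempty compact convex subsets of the plane. -/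
theorem planar_bm (P Q : Set (ℝ × ℝ)) (hP : IsCompact P) (hPc : Convex ℝ P) (hPn : P.Nonempty)
    (hQ : IsCompact Q) (hQc : Convex ℝ Q) (hQn : Q.Nonempty) (l : ℝ) (hl0 : 0 ≤ l) (hl1 : l ≤ 1) :
    (1 - l) * √((volume P).toReal) + l * √((volume Q).toReal)
      ≤ √((volume ((1 - l) • P + l • Q)).toReal) := by
  have h1l : 0 ≤ 1 - l := by linarith
  obtain ⟨pa, hpa, hpamin⟩ := hP.exists_isMinOn hPn continuous_fst.continuousOn
  obtain ⟨pb, hpb, hpbmax⟩ := hP.exists_isMaxOn hPn continuous_fst.continuousOn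
  obtain ⟨qa, hqa, hqamin⟩ := hQ.exists_isMinOn hQn continuous_fst.continuousOn
  obtain ⟨qb, hqb, hqbmax⟩ := hQ.exists_isMaxOn hQn continuous_fst.continuousOn
  have hPab : pa.1 ≤ pb.1 := hpamin hpb
  have hQab : qa.1 ≤ qb.1 := hqamin hqb
  have hS : IsCompact ((1 - l) • P + l • Q) := (hP.smul _).add (hQ.smul _)
  have hVP := volume_eq_mul hP hPab (fun p hp => ⟨hpamin hp, hpbmax hp⟩)
  have hVQ := volume_eq_mul hQ hQab (fun p hp => ⟨hqamin hp, hqbmax hp⟩)
  set IP := ∫ θ in (0:ℝ)..1, secLen P (pa.1 + (pb.1 - pa.1) * θ) with hIP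
  set IQ := ∫ θ in (0:ℝ)..1, secLen Q (qa.1 + (qb.1 - qa.1) * θ) with hIQ
  have hIP0 : 0 ≤ IP := intervalIntegral.integral_nonneg (by norm_num)
    (fun θ _ => secLen_nonneg _ _)
  have hIQ0 : 0 ≤ IQ := intervalIntegral.integral_nonneg (by norm_num)
    (fun θ _ => secLen_nonneg _ _)
  have hSab : (1 - l) * pa.1 + l * qa.1 ≤ (1 - l) * pb.1 + l * qb.1 :=
    add_le_add (mul_le_mul_of_nonneg_left hPab h1l) (mul_le_mul_of_nonneg_left hQab hl0)
  have hVS := volume_ge_mul hS hSab
  have hint : (1 - l) * IP + l * IQ ≤ ∫ θ in (0:ℝ)..1, secLen ((1 - l) • P + l • Q)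
      (((1 - l) * pa.1 + l * qa.1)
        + (((1 - l) * pb.1 + l * qb.1) - ((1 - l) * pa.1 + l * qa.1)) * θ) := by
    rw [hIP, hIQ, ← intervalIntegral.integral_const_mul, ← intervalIntegral.integral_const_mul,
      ← intervalIntegral.integral_add
        ((intervalIntegrable_secLen_comp hP _ _).const_mul _)
        ((intervalIntegrable_secLen_comp hQ _ _).const_mul _)]
    apply intervalIntegral.integral_mono_on (by norm_num)
      (((intervalIntegrable_secLen_comp hP _ _).const_mul _).add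
        ((intervalIntegrable_secLen_comp hQ _ _).const_mul _))
      (intervalIntegrable_secLen_comp hS _ _)
    intro θ hθ
    have hθ1 : 0 ≤ 1 - θ := by linarith [hθ.2]
    have hxP : (Prod.mk (pa.1 + (pb.1 - pa.1) * θ) ⁻¹' P).Nonempty := by
      refine ⟨(1 - θ) * pa.2 + θ * pb.2, ?_⟩
      have := hPc hpa hpb hθ1 hθ.1 (by ring)
      have e : (1 - θ) • pa + θ • pb
          = (pa.1 + (pb.1 - pa.1) * θ, (1 - θ) * pa.2 + θ * pb.2) := by
        ext
        · simp; ring
        · simp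
      rw [e] at this
      exact this
    have hxQ : (Prod.mk (qa.1 + (qb.1 - qa.1) * θ) ⁻¹' Q).Nonempty := by
      refine ⟨(1 - θ) * qa.2 + θ * qb.2, ?_⟩
      have := hQc hqa hqb hθ1 hθ.1 (by ring)
      have e : (1 - θ) • qa + θ • qb
          = (qa.1 + (qb.1 - qa.1) * θ, (1 - θ) * qa.2 + θ * qb.2) := by
        ext
        · simp; ring
        · simp
      rw [e] at this
      exact this
    have := secLen_combo hP hPc hQ hQc hl0 hl1 hxP hxQ
    convert this using 2
    ring
  rw [hVP, hVQ]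
  apply real_ineq h1l hl0 (by linarith) (by linarith) hIP0 hIQ0
  refine le_trans ?_ hVS
  have e : (1 - l) * (pb.1 - pa.1) + l * (qb.1 - qa.1)
      = ((1 - l) * pb.1 + l * qb.1) - ((1 - l) * pa.1 + l * qa.1) := by ring
  rw [e]
  apply mul_le_mul_of_nonneg_left hint
  linarith

end Vale.Agent.P243
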