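import Mathlib

/-!
# Chord-length level sets of a convex body in `F × ℝ`
-/

namespace Vale.Agent.P243

open MeasureTheory Set
open scoped Pointwise ENNReal

set_option linter.unusedSectionVars false

variable {F : Type*} [NormedAddCommGroup F] [NormedSpace ℝ F]

/-- Points of the base over which `K` has a vertical chord of length at least `τ`. -/
def sec (K : Set (F × ℝ)) (τ : ℝ) : Set F :=
  {y | ∃ t t' : ℝ, (y, t) ∈ K ∧ (y, t') ∈ K ∧ τ ≤ t' - t}

/-- The vertical fibre of `K` over `y`. -/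
def fib (K : Set (F × ℝ)) (y : F) : Set ℝ := {t | (y, t) ∈ K}

/-- The length of the vertical fibre of `K` over `y`. -/
noncomputable def ell (K : Set (F × ℝ)) (y : F) : ℝ := (volume (fib K y)).toReal

theorem sec_anti (K : Set (F × ℝ)) {s t : ℝ} (h : s ≤ t) : sec K t ⊆ sec K s := by
  rintro y ⟨a, b, ha, hb, hab⟩
  exact ⟨a, b, ha, hb, h.trans hab⟩

theorem sec_zero (K : Set (F × ℝ)) : sec K 0 = Prod.fst '' K := by
  ext y
  constructor
  · rintro ⟨a, b, ha, -, -⟩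
    exact ⟨(y, a), ha, rfl⟩
  · rintro ⟨⟨y', a⟩, ha, rfl⟩
    exact ⟨a, a, ha, ha, by simp⟩

theorem sec_mix {K : Set (F × ℝ)} (hK : Convex ℝ K) (s t l : ℝ) (hl0 : 0 ≤ l) (hl1 : l ≤ 1) :
    (1 - l) • sec K s + l • sec K t ⊆ sec K ((1 - l) * s + l * t) := by
  rintro y ⟨_, ⟨y₁, ⟨a₁, b₁, ha₁, hb₁, h₁⟩, rfl⟩, _, ⟨y₂, ⟨a₂, b₂, ha₂, hb₂, h₂⟩, rfl⟩, rfl⟩
  refine ⟨(1 - l) * a₁ + l * a₂, (1 - l) * b₁ + l * b₂, ?_, ?_, ?_⟩
  · have := hK ha₁ ha₂ (sub_nonneg.2 hl1) hl0 (by ring)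
    simpa using this
  · have := hK hb₁ hb₂ (sub_nonneg.2 hl1) hl0 (by ring)
    simpa using this
  · have e1 : (1 - l) * s ≤ (1 - l) * (b₁ - a₁) := mul_le_mul_of_nonneg_left h₁ (sub_nonneg.2 hl1)
    have e2 : l * t ≤ l * (b₂ - a₂) := mul_le_mul_of_nonneg_left h₂ hl0
    nlinarith

theorem sec_convex {K : Set (F × ℝ)} (hK : Convex ℝ K) (t : ℝ) : Convex ℝ (sec K t) := by
  intro y₁ h₁ y₂ h₂ p q hp hq hpq
  have hp' : p = 1 - q := by linarith
  have := sec_mix hK t t q hq (by linarith)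
  have h3 : (1 - q) * t + q * t = t := by ring
  rw [h3] at this
  apply this
  rw [hp']
  exact Set.add_mem_add (Set.smul_mem_smul_set h₁) (Set.smul_mem_smul_set h₂)

theorem sec_compact {K : Set (F × ℝ)} (hK : IsCompact K) (t : ℝ) : IsCompact (sec K t) := by
  have hc : IsCompact ((K ×ˢ K) ∩ {p : (F × ℝ) × (F × ℝ) | p.1.1 = p.2.1 ∧ t ≤ p.2.2 - p.1.2}) := by
    apply (hK.prod hK).inter_right
    have h1 : IsClosed {p : (F × ℝ) × (F × ℝ) | p.1.1 = p.2.1} :=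
      isClosed_eq (by fun_prop) (by fun_prop)
    have h2 : IsClosed {p : (F × ℝ) × (F × ℝ) | t ≤ p.2.2 - p.1.2} :=
      isClosed_le (by fun_prop) (by fun_prop)
    exact h1.inter h2
  have : sec K t = (fun p : (F × ℝ) × (F × ℝ) => p.1.1) ''
      ((K ×ˢ K) ∩ {p : (F × ℝ) × (F × ℝ) | p.1.1 = p.2.1 ∧ t ≤ p.2.2 - p.1.2}) := by
    ext y
    constructor
    · rintro ⟨a, b, ha, hb, hab⟩
      exact ⟨((y, a), (y, b)), ⟨⟨ha, hb⟩, rfl, hab⟩, rfl⟩
    · rintro ⟨⟨⟨y₁, a⟩, ⟨y₂, b⟩⟩, ⟨⟨ha, hb⟩, h1, hab⟩, rfl⟩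
      simp only at h1 hab
      subst h1
      exact ⟨a, b, ha, hb, hab⟩
  rw [this]
  exact hc.image (by fun_prop)

theorem fib_compact {K : Set (F × ℝ)} (hK : IsCompact K) (y : F) : IsCompact (fib K y) := by
  have : fib K y = Prod.snd '' (K ∩ {p : F × ℝ | p.1 = y}) := by
    ext t
    constructor
    · intro h
      exact ⟨(y, t), ⟨h, rfl⟩, rfl⟩
    · rintro ⟨⟨y', t'⟩, ⟨h, h1⟩, rfl⟩
      simp only [mem_ofPred_eq] at h1
      subst h1
      exact h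
  rw [this]
  exact (hK.inter_right (isClosed_eq (by fun_prop) (by fun_prop))).image (by fun_prop)

theorem fib_ordConnected {K : Set (F × ℝ)} (hK : Convex ℝ K) (y : F) {a b : ℝ}
    (ha : a ∈ fib K y) (hb : b ∈ fib K y) : Icc a b ⊆ fib K y := by
  have hc : Convex ℝ (fib K y) := by
    intro a ha b hb p q hp hq hpq
    have := hK ha hb hp hq hpq
    simp only [Prod.smul_mk, Prod.mk_add_mk, ← add_smul, hpq, one_smul] at this
    exact this
  exact hc.ordConnected.out ha hb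

theorem sec_eq_ell {K : Set (F × ℝ)} (hK : IsCompact K) (hKc : Convex ℝ K) {t : ℝ} (ht : 0 < t) :
    sec K t = {y | t ≤ ell K y} := by
  ext y
  have hfin : volume (fib K y) ≠ ∞ := (fib_compact hK y).measure_lt_top.ne
  constructor
  · rintro ⟨a, b, ha, hb, hab⟩
    have h1 : volume (Icc a b) ≤ volume (fib K y) := measure_mono (fib_ordConnected hKc y ha hb)
    rw [Real.volume_Icc] at h1
    have h2 : b - a ≤ ell K y := (ENNReal.ofReal_le_iff_le_toReal hfin).1 h1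
    exact hab.trans h2
  · intro h
    simp only [mem_ofPred_eq] at h
    have hne : (fib K y).Nonempty := by
      by_contra hcon
      rw [Set.not_nonempty_iff_eq_empty] at hcon
      simp [ell, hcon] at h
      linarith
    obtain ⟨a, ha, ha'⟩ := (fib_compact hK y).exists_isLeast hne
    obtain ⟨b, hb, hb'⟩ := (fib_compact hK y).exists_isGreatest hne
    refine ⟨a, b, ha, hb, ?_⟩
    have h1 : volume (fib K y) ≤ volume (Icc a b) := measure_mono fun x hx => ⟨ha' hx, hb' hx⟩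
    rw [Real.volume_Icc] at h1
    have h2 : ell K y ≤ b - a := by
      have hab : a ≤ b := ha' hb
      have := ENNReal.toReal_mono ENNReal.ofReal_ne_top h1
      rwa [ENNReal.toReal_ofReal (by linarith)] at this
    exact h.trans h2

/-- The maximal chord length. -/
theorem exists_max_chord {K : Set (F × ℝ)} (hK : IsCompact K) (hKn : K.Nonempty) :
    ∃ M : ℝ, 0 ≤ M ∧ (sec K M).Nonempty ∧ ∀ t, M < t → sec K t = ∅ := by
  have hc : IsCompact ((K ×ˢ K) ∩ {p : (F × ℝ) × (F × ℝ) | p.1.1 = p.2.1}) := by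
    apply (hK.prod hK).inter_right
    exact isClosed_eq (by fun_prop) (by fun_prop)
  obtain ⟨x, hx⟩ := hKn
  have hne : ((K ×ˢ K) ∩ {p : (F × ℝ) × (F × ℝ) | p.1.1 = p.2.1}).Nonempty :=
    ⟨(x, x), ⟨hx, hx⟩, rfl⟩
  obtain ⟨⟨⟨y₁, a⟩, ⟨y₂, b⟩⟩, ⟨⟨ha, hb⟩, h1⟩, hmax⟩ :=
    hc.exists_isMaxOn hne (f := fun p : (F × ℝ) × (F × ℝ) => p.2.2 - p.1.2) (by fun_prop)
  simp only [mem_ofPred_eq] at h1
  subst h1
  refine ⟨b - a, ?_, ⟨y₁, a, b, ha, hb, le_rfl⟩, ?_⟩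
  · have := hmax (show ((x, x) : (F × ℝ) × (F × ℝ)) ∈ _ from ⟨⟨hx, hx⟩, rfl⟩)
    simpa using this
  · intro t ht
    rw [Set.eq_empty_iff_forall_notMem]
    rintro y ⟨a', b', ha', hb', hab⟩
    have := hmax (show (((y, a'), (y, b')) : (F × ℝ) × (F × ℝ)) ∈ _ from ⟨⟨ha', hb'⟩, rfl⟩)
    simp only [mem_ofPred_eq] at this
    linarith

end Vale.Agent.P243
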