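import Vale.Agent.P243.Defs

/-!
# Cylinders with bases in the subtype of the plane (internal version)
-/

namespace Vale.Agent.P243

open MeasureTheory

/-- The plane `u^⊥` through the origin (for `u ≠ 0`), as a subspace of `E3`. -/
noncomputable abbrev perp (u : E3) : Submodule ℝ E3 := (ℝ ∙ u)ᗮ

/-- The orthogonal projection of `E3` onto the plane `u^⊥`. -/
noncomputable def proj (u : E3) (x : E3) : perp u := (perp u).orthogonalProjectionOnto x

/-- The cylinder `B + ℝ u` with base `B ⊆ u^⊥` and axis direction `u`. -/
def cyl (u : E3) (B : Set (perp u)) : Set E3 := {x | ∃ b ∈ B, ∃ t : ℝ, x = (b : E3) + t • u}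

/-- The planar (Lebesgue) area of a subset of the plane `u^⊥`. -/
noncomputable def area {u : E3} (S : Set (perp u)) : ℝ := (volume S).toReal

/-- The area of the orthogonal projection of `K` onto the plane `u^⊥`. -/
noncomputable def shadowArea (K : Set E3) (u : E3) : ℝ := area (proj u '' K)

end Vale.Agent.P243
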