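import Vale.Agent.P243.SubDefs
import Vale.Agent.P243.Core
import Vale.Agent.P243.PlanarBM

/-!
# Transfer of the refined volume bound to Euclidean 3-space
-/

namespace Vale.Agent.P243

open MeasureTheory Set
open scoped Pointwise ENNReal NNReal

/-- Brunn-Minkowski for any additive Haar measure on a two-dimensional real normed space. -/
theorem bm2_of_finrank_two {F : Type*} [NormedAddCommGroup F] [NormedSpace ℝ F]
    [FiniteDimensional ℝ F] [MeasurableSpace F] [BorelSpace F] (μ : Measure F)
    [μ.IsAddHaarMeasure] (h : Module.finrank ℝ F = 2) : BM2 μ := by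
  have hfr : Module.finrank ℝ F = Module.finrank ℝ (ℝ × ℝ) := by simp [h]
  let e : F ≃L[ℝ] ℝ × ℝ := ContinuousLinearEquiv.ofFinrankEq hfr
  have hmap : Measure.map e μ = (Measure.map e μ).addHaarScalarFactor volume • volume :=
    Measure.isAddLeftInvariant_eq_smul _ _
  set κ : ℝ≥0 := (Measure.map e μ).addHaarScalarFactor volume with hκ
  have key : ∀ S : Set F, (μ S).toReal = κ * (volume (e '' S)).toReal := by
    intro S
    have h1 : μ S = Measure.map e μ (e '' S) := by
      have h2 := e.toHomeomorph.toMeasurableEquiv.map_apply (μ := μ) (e '' S)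
      have h3 : (e.toHomeomorph.toMeasurableEquiv : F → ℝ × ℝ) = e := rfl
      rw [h3, Set.preimage_image_eq S e.injective] at h2
      exact h2.symm
    rw [h1, hmap]
    simp [ENNReal.toReal_mul]
  intro P Q hP hPc hPn hQ hQc hQn l hl0 hl1
  have him : e '' ((1 - l) • P + l • Q) = (1 - l) • (e '' P) + l • (e '' Q) := by
    rw [Set.image_add, image_smul_setₛₗ, image_smul_setₛₗ]
    rfl
  rw [key, key, key, him]
  have := planar_bm (e '' P) (e '' Q) (hP.image e.continuous) (hPc.linear_image e.toLinearMap)
    (hPn.image e) (hQ.image e.continuous) (hQc.linear_image e.toLinearMap) (hQn.image e) l hl0 hl1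
  have hk0 : (0 : ℝ) ≤ κ := κ.2
  rw [Real.sqrt_mul hk0, Real.sqrt_mul hk0, Real.sqrt_mul hk0]
  have hk : 0 ≤ √(κ : ℝ) := Real.sqrt_nonneg _
  nlinarith [mul_le_mul_of_nonneg_left this hk]

theorem proj_add_inner_smul (u : E3) (hu : ‖u‖ = 1) (x : E3) :
    ((proj u x : perp u) : E3) + (inner ℝ u x) • u = x := by
  have h1 := Submodule.starProjection_add_starProjection_orthogonal (K := ℝ ∙ u) x
  rw [Submodule.starProjection_unit_singleton ℝ hu] at h1
  rw [add_comm]
  exact h1

theorem proj_coe_add_smul (u : E3) (y : perp u) (t : ℝ) : proj u ((y : E3) + t • u) = y := by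
  unfold proj
  rw [map_add, map_smul, Submodule.orthogonalProjectionOnto_orthogonalComplement_singleton_eq_zero,
    smul_zero, add_zero, Submodule.orthogonalProjectionOnto_mem_subspace_eq_self]

theorem inner_coe_add_smul (u : E3) (hu : ‖u‖ = 1) (y : perp u) (t : ℝ) :
    inner ℝ u ((y : E3) + t • u) = t := by
  have h1 : inner ℝ u (y : E3) = 0 := Submodule.mem_orthogonal_singleton_iff_inner_right.1 y.2
  rw [inner_add_right, h1, inner_smul_right, real_inner_self_eq_norm_sq, hu]
  simp

/-- The cylinder `B + ℝ u` is the preimage of its base under the orthogonal projection. -/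
theorem cyl_eq_preimage (u : E3) (hu : ‖u‖ = 1) (B : Set (perp u)) : cyl u B = proj u ⁻¹' B := by
  ext x
  constructor
  · rintro ⟨b, hb, t, rfl⟩
    rw [Set.mem_preimage, proj_coe_add_smul]
    exact hb
  · intro hx
    exact ⟨proj u x, hx, inner ℝ u x, (proj_add_inner_smul u hu x).symm⟩

/-- The splitting `E3 ≃ u^⊥ × ℝ`. -/
noncomputable def split (u : E3) (hu : ‖u‖ = 1) : E3 ≃L[ℝ] (perp u × ℝ) :=
  ContinuousLinearEquiv.equivOfInverse
    (((perp u).orthogonalProjectionOnto).prod (innerSL ℝ u))
    (((perp u).subtypeL.comp (ContinuousLinearMap.fst ℝ (perp u) ℝ)) +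
      ((ContinuousLinearMap.snd ℝ (perp u) ℝ).smulRight u))
    (by
      intro x
      exact proj_add_inner_smul u hu x)
    (by
      rintro ⟨y, t⟩
      have h1 := proj_coe_add_smul u y t
      have h2 := inner_coe_add_smul u hu y t
      exact Prod.ext h1 h2)

theorem split_apply (u : E3) (hu : ‖u‖ = 1) (x : E3) : split u hu x = (proj u x, inner ℝ u x) := rfl

theorem finrank_perp (u : E3) (hu : ‖u‖ = 1) : Module.finrank ℝ (perp u) = 2 := by
  have : Fact (Module.finrank ℝ E3 = 2 + 1) := ⟨by simp⟩
  exact Submodule.finrank_orthogonal_span_singleton (by intro h; simp [h] at hu)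

theorem shadow_pos (K : Set E3) (hKi : (interior K).Nonempty) (u : E3) (hu : ‖u‖ = 1) :
    0 < volume (proj u '' K) := by
  have h1 : IsOpen (Prod.fst '' (split u hu '' interior K)) :=
    isOpenMap_fst _ ((split u hu).toHomeomorph.isOpenMap _ isOpen_interior)
  have h2 : Prod.fst '' (split u hu '' interior K) ⊆ proj u '' K := by
    rw [Set.image_image]
    exact Set.image_mono interior_subset
  exact (h1.measure_pos volume ((hKi.image _).image _)).trans_le (measure_mono h2)

/-- **Refined volume bound** for a cylinder in Euclidean 3-space. -/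
theorem volume_inter_cyl_le (K : Set E3) (hK : IsCompact K) (hKc : Convex ℝ K)
    (hKi : (interior K).Nonempty) (u : E3) (hu : ‖u‖ = 1) (B : Set (perp u))
    (hB : MeasurableSet B) (hBfin : volume B ≠ ∞) (c : ℝ) (hc0 : 0 ≤ c) (hc1 : c ≤ 1) :
    volume (K ∩ cyl u B) ≤
      ENNReal.ofReal (3 * (1 - c) * (area B / shadowArea K u) + c ^ 3) * volume K := by
  set Ψ := split u hu with hΨ
  have hmap : Measure.map Ψ volume
      = (Measure.map Ψ volume).addHaarScalarFactor (volume.prod volume) • (volume.prod volume) :=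
    Measure.isAddLeftInvariant_eq_smul _ _
  set κ : ℝ≥0 := (Measure.map Ψ volume).addHaarScalarFactor (volume.prod volume) with hκ
  have key : ∀ S : Set E3, volume S = κ * (volume.prod volume) (Ψ '' S) := by
    intro S
    have h1 : volume S = Measure.map Ψ volume (Ψ '' S) := by
      have h2 := Ψ.toHomeomorph.toMeasurableEquiv.map_apply (μ := volume) (Ψ '' S)
      have h3 : (Ψ.toHomeomorph.toMeasurableEquiv : E3 → perp u × ℝ) = Ψ := rfl
      rw [h3, Set.preimage_image_eq S Ψ.injective] at h2
      exact h2.symm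
    rw [h1, hmap]
    simp
  have hfst : Prod.fst '' (Ψ '' K) = proj u '' K := by
    rw [Set.image_image]
    rfl
  have hinter : Ψ '' (K ∩ cyl u B) = Ψ '' K ∩ B ×ˢ univ := by
    rw [cyl_eq_preimage u hu, Set.image_inter Ψ.injective]
    congr 1
    ext ⟨y, t⟩
    constructor
    · rintro ⟨x, hx, hxy⟩
      have : proj u x = y := congrArg Prod.fst hxy
      simpa [← this] using hx
    · rintro ⟨hy, -⟩
      refine ⟨Ψ.symm (y, t), ?_, by simp⟩
      have : proj u (Ψ.symm (y, t)) = y := by
        have := split_apply u hu (Ψ.symm (y, t))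
        rw [← hΨ, ContinuousLinearEquiv.apply_symm_apply] at this
        exact (congrArg Prod.fst this).symm
      rw [Set.mem_preimage, this]
      exact hy
  have hcore := core_KL (volume : Measure (perp u)) (bm2_of_finrank_two _ (finrank_perp u hu))
    (hK.image Ψ.continuous) (hKc.linear_image Ψ.toLinearMap)
    (by rw [hfst]; exact shadow_pos K hKi u hu) hB hBfin c hc0 hc1
  rw [hfst] at hcore
  rw [key, key K, hinter]
  calc (κ : ℝ≥0∞) * (volume.prod volume) (Ψ '' K ∩ B ×ˢ univ)
      ≤ κ * (ENNReal.ofReal (3 * (1 - c) * (area B / shadowArea K u) + c ^ 3)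
          * (volume.prod volume) (Ψ '' K)) := by
        gcongr
        exact hcore
    _ = _ := by ring

end Vale.Agent.P243
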